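import Vale.Agent.P310.Diag

namespace Vale.Agent.Results.P310.LowerBound
open Vale.Agent.P310

theorem result : ∃ c : ℝ, 0 < c ∧ ∀ k : ℕ, 2 ≤ k → ∀ M : TM, Decides M k →
    ∃ N : ℕ, ∀ n : ℕ, N ≤ n → ∃ n' : ℕ, n' ≤ n ∧ n ≤ 4 * n' ∧
      ∃ G H : SimpleGraph (Fin n'), ∀ t : ℕ, (t : ℝ) ≤ (n : ℝ) ^ (c * k) →
        run M (enc2 G H) t = none := by
  obtain ⟨W, hW⟩ : ∃ W : ℕ, W = 10000000000 := ⟨_, rfl⟩
  have hW0 : (0 : ℝ) < W := by rw [hW]; norm_num
  refine ⟨1 / W, by positivity, fun k hk M hD => ?_⟩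
  by_cases hkW : k ≤ W
  · refine ⟨2, fun n hn => ⟨n, le_rfl, by omega, ?_⟩⟩
    obtain ⟨G, H, h⟩ := small M hk hD hn
    refine ⟨G, H, fun t ht => h t ?_⟩
    have h1 : (n : ℝ) ^ (1 / (W : ℝ) * k) ≤ (n : ℝ) ^ (1 : ℝ) := by
      apply Real.rpow_le_rpow_of_exponent_le (by exact_mod_cast (by omega : 1 ≤ n))
      rw [one_div, inv_mul_le_iff₀ hW0, mul_one]
      exact_mod_cast hkW
    rw [Real.rpow_one] at h1
    have h2 : t ≤ n := by exact_mod_cast ht.trans h1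
    nlinarith
  · obtain ⟨p0, hp0⟩ := diag M (k := k) (m := 4 * (k / W)) (L := (k - 4) / 3 - 2) (by omega)
      (by omega) (by omega) (by subst hW; norm_num; omega) hD
    refine ⟨(2 * p0 + 2) ^ 2, fun n hn => ?_⟩
    have hs : 2 * p0 + 2 ≤ n.sqrt := Nat.le_sqrt'.2 hn
    obtain ⟨p, hp, h1, h2⟩ := Nat.exists_prime_lt_and_le_two_mul (n.sqrt / 2) (by omega)
    have h3 : p * p ≤ n := le_trans (Nat.mul_le_mul (by omega) (by omega)) (Nat.sqrt_le n)
    have h4 : n < 4 * (p * p) := by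
      have := Nat.lt_succ_sqrt n
      have h5 : n.sqrt.succ * n.sqrt.succ ≤ (2 * p) * (2 * p) :=
        Nat.mul_le_mul (by omega) (by omega)
      nlinarith
    obtain ⟨G, H, h⟩ := hp0 p hp (by omega)
    refine ⟨p * p, h3, h4.le, G, H, fun t ht => h t ?_⟩
    have hp2 := hp.two_le
    have h5 : n ≤ p ^ 4 := by
      have : 4 ≤ p * p := by nlinarith
      nlinarith
    have h6 : (n : ℝ) ^ (1 / (W : ℝ) * k) ≤ (n : ℝ) ^ ((k / W + 1 : ℕ) : ℝ) := by
      apply Real.rpow_le_rpow_of_exponent_le (by exact_mod_cast (by nlinarith : 1 ≤ n))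
      rw [one_div, inv_mul_le_iff₀ hW0]
      have : k ≤ W * (k / W + 1) := (Nat.lt_mul_div_succ k (by omega)).le
      exact_mod_cast this
    rw [Real.rpow_natCast] at h6
    have h7 : t ≤ n ^ (k / W + 1) := by exact_mod_cast ht.trans h6
    calc t ≤ (p ^ 4) ^ (k / W + 1) := h7.trans (Nat.pow_le_pow_left h5 _)
      _ = p ^ (4 * (k / W) + 4) := by rw [← pow_mul]; ring_nf
      _ < p ^ (4 * (k / W) + 5) := Nat.pow_lt_pow_right (by omega) (by omega)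

end Vale.Agent.Results.P310.LowerBound
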